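import Vale.Agent.Lib.P235.Defs

set_option linter.style.haveILetI false

namespace Vale.Agent.Lib.P235

namespace Net

variable (N : Net)

theorem walkLen_nil (x : N.V) : N.walkLen (SimpleGraph.Walk.nil : N.G.Walk x x) = 0 := rfl

theorem walkLen_cons {x v y : N.V} (a : N.G.Adj x v) (p : N.G.Walk v y) :
    N.walkLen (SimpleGraph.Walk.cons a p) = |N.h x - N.h v| + N.walkLen p := rfl

theorem walkLen_nonneg {x y : N.V} (p : N.G.Walk x y) : 0 ≤ N.walkLen p := by
  induction p with
  | nil => simp [walkLen_nil]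
  | cons a p ih =>
    rw [walkLen_cons]
    exact add_nonneg (abs_nonneg _) ih

theorem walkLen_append {x y z : N.V} (p : N.G.Walk x y) (q : N.G.Walk y z) :
    N.walkLen (p.append q) = N.walkLen p + N.walkLen q := by
  induction p with
  | nil => simp [walkLen_nil]
  | cons a p ih =>
    rw [SimpleGraph.Walk.cons_append, walkLen_cons, walkLen_cons, ih]
    ring

theorem walkLen_reverse {x y : N.V} (p : N.G.Walk x y) :
    N.walkLen p.reverse = N.walkLen p := by
  induction p with
  | nil => simp [walkLen_nil]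
  | @cons u v w a p ih =>
    rw [SimpleGraph.Walk.reverse_cons, walkLen_append, ih, walkLen_cons, walkLen_cons, walkLen_nil,
      abs_sub_comm]
    ring

theorem exists_walk_from_s (v : N.V) :
    ∃ p : N.G.Walk N.s v, N.walkLen p = N.h v - N.h N.s := by
  have := N.fin
  have wf : WellFounded (fun a b : N.V => N.h a < N.h b) :=
    Finite.wellFounded_of_trans_of_irrefl (r := fun a b : N.V => N.h a < N.h b)
  induction v using wf.induction with
  | _ v ih =>
    by_cases hv : v = N.s
    · subst hv
      exact ⟨SimpleGraph.Walk.nil, by simp [walkLen_nil]⟩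
    · obtain ⟨u, hu, hlt⟩ := N.low v hv
      obtain ⟨p, hp⟩ := ih u hlt
      refine ⟨p.append (SimpleGraph.Walk.cons hu SimpleGraph.Walk.nil), ?_⟩
      rw [walkLen_append, hp, walkLen_cons, walkLen_nil, abs_of_neg (by linarith)]
      ring

theorem exists_walk_to_t (v : N.V) :
    ∃ p : N.G.Walk v N.t, N.walkLen p = N.h N.t - N.h v := by
  have := N.fin
  have wf : WellFounded (fun a b : N.V => N.h b < N.h a) :=
    Finite.wellFounded_of_trans_of_irrefl (r := fun a b : N.V => N.h b < N.h a)
  induction v using wf.induction with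
  | _ v ih =>
    by_cases hv : v = N.t
    · subst hv
      exact ⟨SimpleGraph.Walk.nil, by simp [walkLen_nil]⟩
    · obtain ⟨u, hu, hlt⟩ := N.up v hv
      obtain ⟨p, hp⟩ := ih u hlt
      refine ⟨SimpleGraph.Walk.cons hu p, ?_⟩
      rw [walkLen_cons, hp, abs_of_neg (by linarith)]
      ring

theorem nonempty_walk (x y : N.V) : Nonempty (N.G.Walk x y) := by
  obtain ⟨p, -⟩ := N.exists_walk_from_s x
  obtain ⟨q, -⟩ := N.exists_walk_from_s y
  exact ⟨p.reverse.append q⟩

theorem dist_le {x y : N.V} (p : N.G.Walk x y) : N.dist x y ≤ N.walkLen p :=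
  ciInf_le ⟨0, by rintro _ ⟨q, rfl⟩; exact N.walkLen_nonneg q⟩ p

theorem le_dist {x y : N.V} {c : ℝ} (H : ∀ p : N.G.Walk x y, c ≤ N.walkLen p) : c ≤ N.dist x y := by
  haveI := N.nonempty_walk x y
  exact le_ciInf H

theorem dist_nonneg (x y : N.V) : 0 ≤ N.dist x y := N.le_dist fun p => N.walkLen_nonneg p

theorem dist_self_le (x : N.V) : N.dist x x ≤ 0 := by
  simpa [walkLen_nil] using N.dist_le (SimpleGraph.Walk.nil : N.G.Walk x x)

theorem dist_comm (x y : N.V) : N.dist x y = N.dist y x := by
  apply le_antisymm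
  · exact N.le_dist fun p => by
      have := N.dist_le p.reverse
      rwa [walkLen_reverse] at this
  · exact N.le_dist fun p => by
      have := N.dist_le p.reverse
      rwa [walkLen_reverse] at this

theorem dist_triangle (x y z : N.V) : N.dist x z ≤ N.dist x y + N.dist y z := by
  have h1 : N.dist x z - N.dist y z ≤ N.dist x y := N.le_dist fun p => by
    have h2 : N.dist x z - N.walkLen p ≤ N.dist y z := N.le_dist fun q => by
      have := N.dist_le (p.append q)
      rw [walkLen_append] at this
      linarith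
    linarith
  linarith

theorem dist_s_le (v : N.V) : N.dist N.s v ≤ N.h v - N.h N.s := by
  obtain ⟨p, hp⟩ := N.exists_walk_from_s v
  rw [← hp]
  exact N.dist_le p

theorem dist_le_t (v : N.V) : N.dist v N.t ≤ N.h N.t - N.h v := by
  obtain ⟨p, hp⟩ := N.exists_walk_to_t v
  rw [← hp]
  exact N.dist_le p

/-- The zero-one indicator of a set, as a real number. -/
noncomputable def ind {V : Type} (A : Set V) (v : V) : ℝ := A.indicator (fun _ => (1 : ℝ)) v

theorem ind_of_mem {V : Type} {A : Set V} {v : V} (h : v ∈ A) : ind A v = 1 := by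
  simp [ind, h]

theorem ind_of_notMem {V : Type} {A : Set V} {v : V} (h : v ∉ A) : ind A v = 0 := by
  simp [ind, h]

theorem ind_nonneg {V : Type} (A : Set V) (v : V) : 0 ≤ ind A v := by
  by_cases h : v ∈ A
  · simp [ind_of_mem h]
  · simp [ind_of_notMem h]

theorem ind_le_one {V : Type} (A : Set V) (v : V) : ind A v ≤ 1 := by
  by_cases h : v ∈ A
  · simp [ind_of_mem h]
  · simp [ind_of_notMem h]

theorem ind_sq {V : Type} (A : Set V) (v : V) : ind A v = 0 ∨ ind A v = 1 := by
  by_cases h : v ∈ A
  · exact Or.inr (ind_of_mem h)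
  · exact Or.inl (ind_of_notMem h)

/-- For zero-one values, the absolute difference is `a + b - 2 a b`. -/
theorem abs_sub_ind {V : Type} (A B : Set V) (x y : V) :
    |ind A x - ind B y| = ind A x + ind B y - 2 * (ind A x * ind B y) := by
  rcases ind_sq A x with h1 | h1 <;> rcases ind_sq B y with h2 | h2 <;> simp [h1, h2]
  norm_num

namespace CutFamily

variable {N} (F : CutFamily N)

theorem sep_eq (x y : N.V) :
    haveI := F.fintype
    F.sep x y = ∑ i, F.w i * |ind (F.S i) x - ind (F.S i) y| := rfl

theorem marginal' (v : N.V) :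
    haveI := F.fintype
    ∑ i, F.w i * ind (F.S i) v = N.h v - N.h N.s := F.marginal v

theorem sep_of_lt {u v : N.V} (huv : N.G.Adj u v) (hlt : N.h u < N.h v) :
    F.sep u v = N.h v - N.h u := by
  letI := F.fintype
  rw [sep_eq]
  have h1 := F.marginal' u
  have h2 := F.marginal' v
  have h3 : ∑ i, F.w i * |ind (F.S i) u - ind (F.S i) v|
      = ∑ i, F.w i * ind (F.S i) v - ∑ i, F.w i * ind (F.S i) u := by
    rw [← Finset.sum_sub_distrib]
    apply Finset.sum_congr rfl
    intro i _
    rw [← mul_sub]
    congr 1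
    have hup := F.upward i u v huv hlt
    by_cases hu : u ∈ F.S i
    · rw [ind_of_mem hu, ind_of_mem (hup hu)]
      simp
    · rw [ind_of_notMem hu]
      rcases ind_sq (F.S i) v with h | h <;> simp [h]
  rw [h3, h1, h2]
  ring

theorem sep_comm (x y : N.V) : F.sep x y = F.sep y x := by
  letI := F.fintype
  rw [sep_eq, sep_eq]
  apply Finset.sum_congr rfl
  intro i _
  rw [abs_sub_comm]

theorem sep_adj {u v : N.V} (huv : N.G.Adj u v) : F.sep u v = |N.h u - N.h v| := by
  rcases lt_or_gt_of_ne (N.adj_ne u v huv) with hlt | hlt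
  · rw [F.sep_of_lt huv hlt, abs_of_neg (by linarith)]
    ring
  · rw [F.sep_comm, F.sep_of_lt huv.symm hlt, abs_of_pos (by linarith)]

theorem sep_triangle (x y z : N.V) : F.sep x z ≤ F.sep x y + F.sep y z := by
  letI := F.fintype
  rw [sep_eq, sep_eq, sep_eq, ← Finset.sum_add_distrib]
  apply Finset.sum_le_sum
  intro i _
  rw [← mul_add]
  apply mul_le_mul_of_nonneg_left _ (F.w_nonneg i)
  exact abs_sub_le _ _ _

theorem sep_self (x : N.V) : F.sep x x = 0 := by
  letI := F.fintype
  rw [sep_eq]
  simp

theorem sep_nonneg (x y : N.V) : 0 ≤ F.sep x y := by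
  letI := F.fintype
  rw [sep_eq]
  exact Finset.sum_nonneg fun i _ => mul_nonneg (F.w_nonneg i) (abs_nonneg _)

theorem sep_le_walkLen {x y : N.V} (p : N.G.Walk x y) : F.sep x y ≤ N.walkLen p := by
  induction p with
  | nil => simp [F.sep_self, walkLen_nil]
  | @cons u v w a p ih =>
    rw [walkLen_cons]
    have h1 := F.sep_triangle u v w
    have h2 := F.sep_adj a
    linarith

/-- A monotone cut family is nonexpansive. -/
theorem sep_le_dist (x y : N.V) : F.sep x y ≤ N.dist x y :=
  N.le_dist fun p => F.sep_le_walkLen p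

end CutFamily

end Net

end Vale.Agent.Lib.P235
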