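import Mathlib

/-!
Monotone two-terminal networks, monotone cut families and substitution of networks for edges.
-/

namespace Vale.Agent.Lib.P235

/-- A monotone two-terminal network: a finite simple graph with a height function `h` and two
distinct terminals `s`, `t`, such that adjacent vertices have different heights, every vertex
other than `s` has a strictly lower neighbour, and every vertex other than `t` has a strictly
higher neighbour.  Edge lengths are the height differences `|h u - h v|`.  Equivalently: a finite
graph with positive edge lengths in which every edge lies on a shortest `s`-`t` path (with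
`h = d(s, -)`). -/
structure Net where
  V : Type
  fin : Finite V
  G : SimpleGraph V
  h : V → ℝ
  s : V
  t : V
  s_ne_t : s ≠ t
  adj_ne : ∀ u v, G.Adj u v → h u ≠ h v
  low : ∀ v, v ≠ s → ∃ u, G.Adj u v ∧ h u < h v
  up : ∀ v, v ≠ t → ∃ u, G.Adj v u ∧ h v < h u

namespace Net

/-- The length of a walk: the sum over its edges of the edge length `|h u - h v|`. -/
noncomputable def walkLen (N : Net) : ∀ {x y : N.V}, N.G.Walk x y → ℝ
  | _, _, .nil => 0
  | x, _, .cons (v := v) _ p => |N.h x - N.h v| + walkLen N p

/-- The shortest-path metric of the network. -/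
noncomputable def dist (N : Net) (x y : N.V) : ℝ := ⨅ p : N.G.Walk x y, N.walkLen p

/-- A monotone cut family on a network: a finite family of sets `S i` with nonnegative weights
`w i`, where each `S i` contains `t` but not `s`, is closed upwards along edges, and every vertex
`v` lies in sets of total weight exactly `h v - h s`. -/
structure CutFamily (N : Net) where
  ι : Type
  fintype : Fintype ι
  w : ι → ℝ
  S : ι → Set N.V
  w_nonneg : ∀ i, 0 ≤ w i
  s_notMem : ∀ i, N.s ∉ S i
  t_mem : ∀ i, N.t ∈ S i
  upward : ∀ i u v, N.G.Adj u v → N.h u < N.h v → u ∈ S i → v ∈ S i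
  marginal : ∀ v, (∑ i, w i * (S i).indicator (fun _ => (1 : ℝ)) v) = N.h v - N.h N.s

/-- The total weight of the sets of the family that separate `x` and `y`. -/
noncomputable def CutFamily.sep {N : Net} (F : CutFamily N) (x y : N.V) : ℝ :=
  haveI := F.fintype
  ∑ i, F.w i * |(F.S i).indicator (fun _ => (1 : ℝ)) x - (F.S i).indicator (fun _ => (1 : ℝ)) y|

/-- `N.Good D`: the network has a monotone cut family separating every pair `x, y` by total weight
at least `dist x y / D`. -/
def Good (N : Net) (D : ℝ) : Prop :=
  ∃ F : CutFamily N, ∀ x y, N.dist x y ≤ D * F.sep x y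

/-- The metric of `N` embeds into an `L₁` space with distortion at most `C`. -/
def EmbedsL1 (N : Net) (C : ℝ) : Prop :=
  ∃ (Ω : Type) (_ : MeasurableSpace Ω) (μ : MeasureTheory.Measure Ω)
    (f : N.V → MeasureTheory.Lp ℝ 1 μ),
    ∀ x y, N.dist x y ≤ ‖f x - f y‖ ∧ ‖f x - f y‖ ≤ C * N.dist x y

/-- The oriented edges of a network: pairs `(lo, hi)` of adjacent vertices with `h lo < h hi`. -/
def E (N : Net) : Type := {p : N.V × N.V // N.G.Adj p.1 p.2 ∧ N.h p.1 < N.h p.2}

/-- The lower end of an oriented edge. -/
def E.lo {N : Net} (e : N.E) : N.V := e.1.1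

/-- The upper end of an oriented edge. -/
def E.hi {N : Net} (e : N.E) : N.V := e.1.2

end Net

/-- Data for a substitution into the skeleton `R`: one network `B e` for each edge `e` of `R`,
whose terminal height difference equals the length of the edge `e`. -/
structure Blocks (R : Net) where
  B : R.E → Net
  len : ∀ e, (B e).h (B e).t - (B e).h (B e).s = R.h e.hi - R.h e.lo

namespace Blocks

variable {R : Net} (S : Blocks R)

/-- The vertices of the substituted network: those of `R` together with the non-terminal vertices
of each block. -/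
abbrev CV : Type := R.V ⊕ Σ e : R.E, {v : (S.B e).V // v ≠ (S.B e).s ∧ v ≠ (S.B e).t}

open Classical in
/-- The map of a block into the substituted network: `s` goes to the lower end of `e`, `t` to its
upper end, and the other vertices to themselves. -/
noncomputable def emb (e : R.E) (v : (S.B e).V) : S.CV :=
  if h₁ : v = (S.B e).s then Sum.inl e.lo
  else if h₂ : v = (S.B e).t then Sum.inl e.hi
  else Sum.inr ⟨e, ⟨v, h₁, h₂⟩⟩

/-- The height on the substituted network. -/
noncomputable def CH : S.CV → ℝ
  | Sum.inl v => R.h v
  | Sum.inr x => R.h x.1.lo + (S.B x.1).h x.2.1 - (S.B x.1).h (S.B x.1).s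

theorem emb_s (e : R.E) : S.emb e (S.B e).s = Sum.inl e.lo := by
  unfold emb
  exact dif_pos rfl

theorem emb_t (e : R.E) : S.emb e (S.B e).t = Sum.inl e.hi := by
  unfold emb
  rw [dif_neg (S.B e).s_ne_t.symm, dif_pos rfl]

theorem emb_inner (e : R.E) (v : (S.B e).V) (h₁ : v ≠ (S.B e).s) (h₂ : v ≠ (S.B e).t) :
    S.emb e v = Sum.inr ⟨e, ⟨v, h₁, h₂⟩⟩ := by
  unfold emb
  rw [dif_neg h₁, dif_neg h₂]

theorem CH_emb (e : R.E) (v : (S.B e).V) :
    S.CH (S.emb e v) = R.h e.lo + (S.B e).h v - (S.B e).h (S.B e).s := by
  by_cases hs : v = (S.B e).s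
  · subst hs
    rw [emb_s]
    simp [CH]
  by_cases ht : v = (S.B e).t
  · subst ht
    rw [emb_t]
    have := S.len e
    simp only [CH]
    linarith
  · rw [S.emb_inner e v hs ht]
    rfl

/-- The substituted graph: two vertices are adjacent exactly when they are the images of two
adjacent vertices of one block. -/
def CG : SimpleGraph S.CV where
  Adj x y := ∃ e u v, (S.B e).G.Adj u v ∧ S.emb e u = x ∧ S.emb e v = y
  symm := ⟨by
    rintro x y ⟨e, u, v, huv, rfl, rfl⟩
    exact ⟨e, v, u, huv.symm, rfl, rfl⟩⟩
  loopless := ⟨by
    rintro x ⟨e, u, v, huv, hu, hv⟩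
    have h1 := S.CH_emb e u
    have h2 := S.CH_emb e v
    rw [hu] at h1
    rw [hv] at h2
    exact (S.B e).adj_ne u v huv (by linarith)⟩

/-- The edge of the skeleton given by two adjacent vertices `u`, `v` with `h u < h v`. -/
def mkE (u v : R.V) (huv : R.G.Adj u v) (hlt : R.h u < R.h v) : R.E := ⟨(u, v), huv, hlt⟩

/-- The network obtained from `R` by replacing every edge `e` by the block `S.B e`, identifying
the terminals `s`, `t` of the block with the lower and the upper end of `e`. -/
noncomputable def sub : Net where
  V := S.CV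
  fin := by
    have := R.fin
    have : Finite R.E := by unfold Net.E; infer_instance
    have := fun e => (S.B e).fin
    unfold CV
    infer_instance
  G := S.CG
  h := S.CH
  s := Sum.inl R.s
  t := Sum.inl R.t
  s_ne_t := fun h => R.s_ne_t (Sum.inl_injective h)
  adj_ne := by
    rintro x y ⟨e, u, v, huv, rfl, rfl⟩ hxy
    rw [CH_emb, CH_emb] at hxy
    exact (S.B e).adj_ne u v huv (by linarith)
  low := by
    rintro (x | ⟨e, v, h1, h2⟩) hx
    · have hx' : x ≠ R.s := fun h => hx (by rw [h])
      obtain ⟨u, hu, hlt⟩ := R.low x hx'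
      let e : R.E := mkE u x hu hlt
      obtain ⟨z, hz, hlt'⟩ := (S.B e).low (S.B e).t (S.B e).s_ne_t.symm
      refine ⟨S.emb e z, ⟨e, z, (S.B e).t, hz, rfl, S.emb_t e⟩, ?_⟩
      have h3 := S.CH_emb e z
      have h4 := S.CH_emb e (S.B e).t
      rw [S.emb_t e] at h4
      change S.CH (S.emb e z) < S.CH (Sum.inl e.hi)
      linarith
    · obtain ⟨z, hz, hlt'⟩ := (S.B e).low v h1
      have hv := S.emb_inner e v h1 h2
      refine ⟨S.emb e z, ⟨e, z, v, hz, rfl, hv⟩, ?_⟩
      have h3 := S.CH_emb e z
      have h4 := S.CH_emb e v
      rw [hv] at h4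
      linarith
  up := by
    rintro (x | ⟨e, v, h1, h2⟩) hx
    · have hx' : x ≠ R.t := fun h => hx (by rw [h])
      obtain ⟨u, hu, hlt⟩ := R.up x hx'
      let e : R.E := mkE x u hu hlt
      obtain ⟨z, hz, hlt'⟩ := (S.B e).up (S.B e).s (S.B e).s_ne_t
      refine ⟨S.emb e z, ⟨e, (S.B e).s, z, hz, S.emb_s e, rfl⟩, ?_⟩
      have h3 := S.CH_emb e z
      have h4 := S.CH_emb e (S.B e).s
      rw [S.emb_s e] at h4
      change S.CH (Sum.inl e.lo) < S.CH (S.emb e z)
      linarith
    · obtain ⟨z, hz, hlt'⟩ := (S.B e).up v h2
      have hv := S.emb_inner e v h1 h2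
      refine ⟨S.emb e z, ⟨e, v, z, hz, hv, rfl⟩, ?_⟩
      have h3 := S.CH_emb e z
      have h4 := S.CH_emb e v
      rw [hv] at h4
      linarith

end Blocks

/-- The class of networks generated from a class `F` by repeated substitution: every member of `F`
belongs to it, and if `R` is in `F` and all blocks on the edges of `R` are in the generated class,
then so is the substituted network. -/
inductive Closure (F : Net → Prop) : Net → Prop
  | base (N : Net) : F N → Closure F N
  | sub (R : Net) (S : Blocks R) : F R → (∀ e, Closure F (S.B e)) → Closure F S.sub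

/-- The rectangular grid network: the box product of a path on `m + 1` and a path on `n + 1`
vertices, of height `a i + b j` at the vertex `(i, j)`, for strictly increasing `a`, `b`, with
terminals at the opposite corners. So the rows and the columns have arbitrary positive lengths. -/
noncomputable def gridNet (m n : ℕ) (hmn : 0 < m + n) (a b : ℕ → ℝ) (ha : StrictMono a)
    (hb : StrictMono b) : Net where
  V := Fin (m + 1) × Fin (n + 1)
  fin := inferInstance
  G := SimpleGraph.pathGraph (m + 1) □ SimpleGraph.pathGraph (n + 1)
  h p := a p.1.val + b p.2.val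
  s := (0, 0)
  t := (Fin.last m, Fin.last n)
  s_ne_t := by
    intro h
    have h1 : (0 : ℕ) = m := by simpa [Fin.ext_iff] using congrArg (fun p => p.1.val) h
    have h2 : (0 : ℕ) = n := by simpa [Fin.ext_iff] using congrArg (fun p => p.2.val) h
    omega
  adj_ne := by
    rintro ⟨i, j⟩ ⟨i', j'⟩ huv
    rw [SimpleGraph.boxProd_adj, SimpleGraph.pathGraph_adj, SimpleGraph.pathGraph_adj] at huv
    intro heq
    rcases huv with ⟨h1, h2⟩ | ⟨h1, h2⟩
    · have h2' : j = j' := h2
      subst h2'
      have hne : i.val ≠ i'.val := by
        change i.val + 1 = i'.val ∨ i'.val + 1 = i.val at h1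
        omega
      have := ha.injective (add_right_cancel heq : a i.val = a i'.val)
      exact hne this
    · have h2' : i = i' := h2
      subst h2'
      have hne : j.val ≠ j'.val := by
        change j.val + 1 = j'.val ∨ j'.val + 1 = j.val at h1
        omega
      have := hb.injective (add_left_cancel heq : b j.val = b j'.val)
      exact hne this
  low := by
    rintro ⟨i, j⟩ hv
    by_cases hi : i.val = 0
    · have hj : j.val ≠ 0 := by
        intro hj
        apply hv
        ext <;> simp [hi, hj]
      refine ⟨(i, ⟨j.val - 1, by omega⟩), ?_, ?_⟩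
      · rw [SimpleGraph.boxProd_adj]
        right
        refine ⟨?_, rfl⟩
        rw [SimpleGraph.pathGraph_adj]
        left
        change j.val - 1 + 1 = j.val
        omega
      · have : b (j.val - 1) < b j.val := hb (by omega)
        change a i.val + b (j.val - 1) < a i.val + b j.val
        linarith
    · refine ⟨(⟨i.val - 1, by omega⟩, j), ?_, ?_⟩
      · rw [SimpleGraph.boxProd_adj]
        left
        refine ⟨?_, rfl⟩
        rw [SimpleGraph.pathGraph_adj]
        left
        change i.val - 1 + 1 = i.val
        omega
      · have : a (i.val - 1) < a i.val := ha (by omega)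
        change a (i.val - 1) + b j.val < a i.val + b j.val
        linarith
  up := by
    rintro ⟨i, j⟩ hv
    by_cases hi : i.val = m
    · have hj : j.val ≠ n := by
        intro hj
        apply hv
        ext <;> simp [hi, hj]
      refine ⟨(i, ⟨j.val + 1, by omega⟩), ?_, ?_⟩
      · rw [SimpleGraph.boxProd_adj]
        right
        refine ⟨?_, rfl⟩
        rw [SimpleGraph.pathGraph_adj]
        left
        rfl
      · have : b j.val < b (j.val + 1) := hb (by omega)
        change a i.val + b j.val < a i.val + b (j.val + 1)
        linarith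
    · refine ⟨(⟨i.val + 1, by omega⟩, j), ?_, ?_⟩
      · rw [SimpleGraph.boxProd_adj]
        left
        refine ⟨?_, rfl⟩
        rw [SimpleGraph.pathGraph_adj]
        left
        rfl
      · have : a i.val < a (i.val + 1) := ha (by omega)
        change a i.val + b j.val < a (i.val + 1) + b j.val
        linarith

/-- `N` is a rectangular grid network. -/
def IsGrid (N : Net) : Prop :=
  ∃ (m n : ℕ) (hmn : 0 < m + n) (a b : ℕ → ℝ) (ha : StrictMono a) (hb : StrictMono b),
    N = gridNet m n hmn a b ha hb

end Vale.Agent.Lib.P235
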