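import Vale.Agent.Lib.P235.Subst

set_option linter.style.haveILetI false
set_option linter.unusedSectionVars false

namespace Vale.Agent.Lib.P235

open Net MeasureTheory

theorem Net.h_s_lt (N : Net) (v : N.V) (hv : v ≠ N.s) : N.h N.s < N.h v := by
  have := N.fin
  have wf : WellFounded (fun a b : N.V => N.h a < N.h b) :=
    Finite.wellFounded_of_trans_of_irrefl (r := fun a b : N.V => N.h a < N.h b)
  induction v using wf.induction with
  | _ v ih =>
    obtain ⟨u, hu, hlt⟩ := N.low v hv
    by_cases hus : u = N.s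
    · rw [← hus]; exact hlt
    · exact (ih u hlt hus).trans hlt

theorem Net.h_lt_t (N : Net) (v : N.V) (hv : v ≠ N.t) : N.h v < N.h N.t := by
  have := N.fin
  have wf : WellFounded (fun a b : N.V => N.h b < N.h a) :=
    Finite.wellFounded_of_trans_of_irrefl (r := fun a b : N.V => N.h b < N.h a)
  induction v using wf.induction with
  | _ v ih =>
    obtain ⟨u, hu, hlt⟩ := N.up v hv
    by_cases hus : u = N.t
    · rw [← hus]; exact hlt
    · exact hlt.trans (ih u hlt hus)

theorem Net.CutFamily.sep_s_t {N : Net} (F : CutFamily N) : F.sep N.s N.t = N.h N.t - N.h N.s := by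
  rw [F.sep_eq', ← F.sum_w]
  apply Finset.sum_congr rfl
  intro i _
  rw [ind_of_notMem (F.s_notMem i), ind_of_mem (F.t_mem i)]
  simp

theorem Net.Good.one_le {N : Net} {D : ℝ} (h : N.Good D) : 1 ≤ D := by
  obtain ⟨F, hF⟩ := h
  have h1 := hF N.s N.t
  have h2 := F.sep_le_dist N.s N.t
  have h3 := F.sep_s_t
  have h4 := N.h_s_lt N.t N.s_ne_t.symm
  rw [h3] at h1 h2
  have h5 : 0 < N.h N.t - N.h N.s := by linarith
  by_contra hD
  rw [not_le] at hD
  nlinarith

theorem Net.Good.mono {N : Net} {D D' : ℝ} (h : N.Good D) (hD : D ≤ D') : N.Good D' := by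
  obtain ⟨F, hF⟩ := h
  exact ⟨F, fun x y => (hF x y).trans (mul_le_mul_of_nonneg_right hD (F.sep_nonneg x y))⟩

/-- A monotone cut family with distortion `D` gives an `L₁` embedding with distortion `D`. -/
theorem Net.Good.embedsL1 {N : Net} {D : ℝ} (h : N.Good D) : N.EmbedsL1 D := by
  have hD0 : 0 ≤ D := by linarith [h.one_le]
  obtain ⟨F, hF⟩ := h
  letI mΩ : MeasurableSpace F.ι := ⊤
  haveI : MeasurableSingletonClass F.ι := ⟨fun _ => trivial⟩
  let μ : Measure F.ι := Measure.count
  haveI : IsFiniteMeasure μ := by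
    constructor
    simp [μ]
  let g : N.V → F.ι → ℝ := fun x i => D * (F.w i * ind (F.S i) x)
  have hg : ∀ x, Integrable (g x) μ := fun x => Integrable.of_finite
  refine ⟨F.ι, mΩ, μ, fun x => (hg x).toL1 (g x), ?_⟩
  have key : ∀ x y, ‖(hg x).toL1 (g x) - (hg y).toL1 (g y)‖ = D * F.sep x y := by
    intro x y
    rw [← Integrable.toL1_sub, L1.norm_of_fun_eq_integral_norm, integral_count, F.sep_eq',
      Finset.mul_sum]
    apply Finset.sum_congr rfl
    intro i _
    simp only [g, Pi.sub_apply, Real.norm_eq_abs]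
    rw [← mul_sub, ← mul_sub, abs_mul, abs_mul, abs_of_nonneg hD0, abs_of_nonneg (F.w_nonneg i)]
  intro x y
  rw [key]
  exact ⟨hF x y, mul_le_mul_of_nonneg_left (F.sep_le_dist x y) hD0⟩

end Vale.Agent.Lib.P235
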