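import Vale.Agent.Lib.P235.Embed

set_option linter.style.haveILetI false
set_option linter.unusedSectionVars false

namespace Vale.Agent.Lib.P235

open Net

/-- The telescoping sum computing a coordinate from threshold cuts. -/
theorem sum_thresh (a : ℕ → ℝ) (m i : ℕ) (hi : i ≤ m) :
    ∑ k : Fin m, (a (k.val + 1) - a k.val) * (if k.val < i then (1 : ℝ) else 0) = a i - a 0 := by
  rw [Fin.sum_univ_eq_sum_range
    (fun k => (a (k + 1) - a k) * (if k < i then (1 : ℝ) else 0)) m]
  induction m with
  | zero =>
    have : i = 0 := by omega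
    simp [this]
  | succ m ih =>
    rw [Finset.sum_range_succ]
    by_cases h : i ≤ m
    · rw [ih h]
      have : ¬ m < i := by omega
      simp [this]
    · have him : i = m + 1 := by omega
      subst him
      have h1 : ∑ x ∈ Finset.range m, (a (x + 1) - a x) * (if x < m + 1 then (1 : ℝ) else 0)
          = ∑ x ∈ Finset.range m, (a (x + 1) - a x) := by
        apply Finset.sum_congr rfl
        intro x hx
        have : x < m + 1 := by
          have := Finset.mem_range.mp hx
          omega
        simp [this]
      rw [h1, Finset.sum_range_sub]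
      simp

theorem indicator_thresh {X : Type} (A : Set X) (x : X) (P : Prop) [Decidable P] (h : x ∈ A ↔ P) :
    A.indicator (fun _ => (1 : ℝ)) x = if P then 1 else 0 := by
  by_cases hp : P
  · rw [if_pos hp, Set.indicator_of_mem (h.2 hp)]
  · rw [if_neg hp, Set.indicator_of_notMem (fun hx => hp (h.1 hx))]

/-- The coordinate cut family of a grid. -/
noncomputable def gridFamily (m n : ℕ) (hmn : 0 < m + n) (a b : ℕ → ℝ) (ha : StrictMono a)
    (hb : StrictMono b) : CutFamily (gridNet m n hmn a b ha hb) where
  ι := Fin m ⊕ Fin n
  fintype := inferInstance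
  w := Sum.elim (fun k => a (k.val + 1) - a k.val) (fun l => b (l.val + 1) - b l.val)
  S := Sum.elim (fun k => {p : Fin (m + 1) × Fin (n + 1) | k.val < p.1.val})
    (fun l => {p : Fin (m + 1) × Fin (n + 1) | l.val < p.2.val})
  w_nonneg := by
    rintro (k | l)
    · exact sub_nonneg.mpr (ha (by omega)).le
    · exact sub_nonneg.mpr (hb (by omega)).le
  s_notMem := by
    rintro (k | l)
    · exact Nat.not_lt_zero _
    · exact Nat.not_lt_zero _
  t_mem := by
    rintro (k | l)
    · exact k.2
    · exact l.2
  upward := by
    rintro (k | l) ⟨i, j⟩ ⟨i', j'⟩ huv hlt hu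
    all_goals
      have huv' := huv
      change (SimpleGraph.pathGraph (m + 1) □ SimpleGraph.pathGraph (n + 1)).Adj (i, j) (i', j')
        at huv'
      rw [SimpleGraph.boxProd_adj, SimpleGraph.pathGraph_adj, SimpleGraph.pathGraph_adj] at huv'
      have hlt' : a i.val + b j.val < a i'.val + b j'.val := hlt
    · change k.val < i.val at hu
      change k.val < i'.val
      rcases huv' with ⟨h1, h2⟩ | ⟨h1, h2⟩
      · have h2' : j = j' := h2
        subst h2'
        have : i.val < i'.val := ha.lt_iff_lt.mp (by linarith)
        omega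
      · have h2' : i = i' := h2
        subst h2'
        exact hu
    · change l.val < j.val at hu
      change l.val < j'.val
      rcases huv' with ⟨h1, h2⟩ | ⟨h1, h2⟩
      · have h2' : j = j' := h2
        subst h2'
        exact hu
      · have h2' : i = i' := h2
        subst h2'
        have : j.val < j'.val := hb.lt_iff_lt.mp (by linarith)
        omega
  marginal := by
    rintro ⟨i, j⟩
    rw [Fintype.sum_sum_type]
    have h1 := sum_thresh a m i.val (by omega)
    have h2 := sum_thresh b n j.val (by omega)
    have h3 : ∑ k : Fin m, (a (k.val + 1) - a k.val) *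
        Set.indicator {p : Fin (m + 1) × Fin (n + 1) | k.val < p.1.val} (fun _ => (1 : ℝ)) (i, j)
        = a i.val - a 0 := by
      rw [← h1]
      apply Finset.sum_congr rfl
      intro k _
      rw [indicator_thresh {p : Fin (m + 1) × Fin (n + 1) | k.val < p.1.val} (i, j) (k.val < i.val)
        Iff.rfl]
    have h4 : ∑ l : Fin n, (b (l.val + 1) - b l.val) *
        Set.indicator {p : Fin (m + 1) × Fin (n + 1) | l.val < p.2.val} (fun _ => (1 : ℝ)) (i, j)
        = b j.val - b 0 := by
      rw [← h2]
      apply Finset.sum_congr rfl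
      intro l _
      rw [indicator_thresh {p : Fin (m + 1) × Fin (n + 1) | l.val < p.2.val} (i, j) (l.val < j.val)
        Iff.rfl]
    have h5 : a ((0 : Fin (m + 1)).val) + b ((0 : Fin (n + 1)).val) = a 0 + b 0 := by
      rw [Fin.val_zero, Fin.val_zero]
    refine Eq.trans (congrArg₂ (· + ·) h3 h4) ?_
    change _ = a i.val + b j.val - (a ((0 : Fin (m + 1)).val) + b ((0 : Fin (n + 1)).val))
    rw [h5]
    ring

theorem grid_row (m n : ℕ) (hmn : 0 < m + n) (a b : ℕ → ℝ) (ha : StrictMono a) (hb : StrictMono b)
    (j : Fin (n + 1)) (d : ℕ) (i i' : Fin (m + 1)) (hd : i'.val = i.val + d) :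
    (gridNet m n hmn a b ha hb).dist (i, j) (i', j) ≤ a i'.val - a i.val := by
  induction d generalizing i' with
  | zero =>
    have : i' = i := Fin.ext (by simpa using hd)
    subst this
    simpa using (gridNet m n hmn a b ha hb).dist_self_le (i', j)
  | succ d ih =>
    let i'' : Fin (m + 1) := ⟨i.val + d, by omega⟩
    have h1 := ih i'' rfl
    have hadj : (gridNet m n hmn a b ha hb).G.Adj (i'', j) (i', j) := by
      change (SimpleGraph.pathGraph (m + 1) □ SimpleGraph.pathGraph (n + 1)).Adj (i'', j) (i', j)
      rw [SimpleGraph.boxProd_adj, SimpleGraph.pathGraph_adj]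
      left
      refine ⟨Or.inl ?_, rfl⟩
      change i.val + d + 1 = i'.val
      omega
    have h2 := (gridNet m n hmn a b ha hb).dist_adj_le hadj
    have h3 := (gridNet m n hmn a b ha hb).dist_triangle (i, j) (i'', j) (i', j)
    have h4 : |(gridNet m n hmn a b ha hb).h (i'', j) - (gridNet m n hmn a b ha hb).h (i', j)|
        = a i'.val - a i''.val := by
      change |a i''.val + b j.val - (a i'.val + b j.val)| = _
      have : a i''.val < a i'.val := ha (by change i.val + d < i'.val; omega)
      rw [abs_of_neg (by linarith)]
      ring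
    rw [h4] at h2
    linarith

theorem grid_col (m n : ℕ) (hmn : 0 < m + n) (a b : ℕ → ℝ) (ha : StrictMono a) (hb : StrictMono b)
    (i : Fin (m + 1)) (d : ℕ) (j j' : Fin (n + 1)) (hd : j'.val = j.val + d) :
    (gridNet m n hmn a b ha hb).dist (i, j) (i, j') ≤ b j'.val - b j.val := by
  induction d generalizing j' with
  | zero =>
    have : j' = j := Fin.ext (by simpa using hd)
    subst this
    simpa using (gridNet m n hmn a b ha hb).dist_self_le (i, j')
  | succ d ih =>
    let j'' : Fin (n + 1) := ⟨j.val + d, by omega⟩
    have h1 := ih j'' rfl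
    have hadj : (gridNet m n hmn a b ha hb).G.Adj (i, j'') (i, j') := by
      change (SimpleGraph.pathGraph (m + 1) □ SimpleGraph.pathGraph (n + 1)).Adj (i, j'') (i, j')
      rw [SimpleGraph.boxProd_adj]
      right
      refine ⟨?_, rfl⟩
      rw [SimpleGraph.pathGraph_adj]
      left
      change j.val + d + 1 = j'.val
      omega
    have h2 := (gridNet m n hmn a b ha hb).dist_adj_le hadj
    have h3 := (gridNet m n hmn a b ha hb).dist_triangle (i, j) (i, j'') (i, j')
    have h4 : |(gridNet m n hmn a b ha hb).h (i, j'') - (gridNet m n hmn a b ha hb).h (i, j')|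
        = b j'.val - b j''.val := by
      change |a i.val + b j''.val - (a i.val + b j'.val)| = _
      have : b j''.val < b j'.val := hb (by change j.val + d < j'.val; omega)
      rw [abs_of_neg (by linarith)]
      ring
    rw [h4] at h2
    linarith

theorem grid_row' (m n : ℕ) (hmn : 0 < m + n) (a b : ℕ → ℝ) (ha : StrictMono a) (hb : StrictMono b)
    (j : Fin (n + 1)) (i i' : Fin (m + 1)) :
    (gridNet m n hmn a b ha hb).dist (i, j) (i', j) ≤ |a i.val - a i'.val| := by
  rcases le_total i.val i'.val with h | h
  · have h1 := grid_row m n hmn a b ha hb j (i'.val - i.val) i i' (by omega)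
    have h2 := le_abs_self (a i'.val - a i.val)
    rw [abs_sub_comm] at h2
    linarith
  · have h1 := grid_row m n hmn a b ha hb j (i.val - i'.val) i' i (by omega)
    have h2 := le_abs_self (a i.val - a i'.val)
    have h3 := (gridNet m n hmn a b ha hb).dist_comm (i, j) (i', j)
    linarith

theorem grid_col' (m n : ℕ) (hmn : 0 < m + n) (a b : ℕ → ℝ) (ha : StrictMono a) (hb : StrictMono b)
    (i : Fin (m + 1)) (j j' : Fin (n + 1)) :
    (gridNet m n hmn a b ha hb).dist (i, j) (i, j') ≤ |b j.val - b j'.val| := by
  rcases le_total j.val j'.val with h | h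
  · have h1 := grid_col m n hmn a b ha hb i (j'.val - j.val) j j' (by omega)
    have h2 := le_abs_self (b j'.val - b j.val)
    rw [abs_sub_comm] at h2
    linarith
  · have h1 := grid_col m n hmn a b ha hb i (j.val - j'.val) j' j (by omega)
    have h2 := le_abs_self (b j.val - b j'.val)
    have h3 := (gridNet m n hmn a b ha hb).dist_comm (i, j) (i, j')
    linarith

/-- The grid networks are exact: their coordinate cut family has distortion one. -/
theorem grid_good (m n : ℕ) (hmn : 0 < m + n) (a b : ℕ → ℝ) (ha : StrictMono a)
    (hb : StrictMono b) : (gridNet m n hmn a b ha hb).Good 1 := by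
  refine ⟨gridFamily m n hmn a b ha hb, ?_⟩
  rintro ⟨i, j⟩ ⟨i', j'⟩
  rw [one_mul]
  have h1 := grid_row' m n hmn a b ha hb j i i'
  have h2 := grid_col' m n hmn a b ha hb i' j j'
  have h3 := (gridNet m n hmn a b ha hb).dist_triangle (i, j) (i', j) (i', j')
  have h4 : |a i.val - a i'.val| + |b j.val - b j'.val|
      ≤ (gridFamily m n hmn a b ha hb).sep (i, j) (i', j') := by
    let F := gridFamily m n hmn a b ha hb
    change _ ≤ ∑ c : Fin m ⊕ Fin n, F.w c * |ind (F.S c) (i, j) - ind (F.S c) (i', j')|
    rw [Fintype.sum_sum_type]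
    apply add_le_add
    · have e1 := sum_thresh a m i.val (by omega)
      have e2 := sum_thresh a m i'.val (by omega)
      have e3 : a i.val - a i'.val = ∑ k : Fin m, (a (k.val + 1) - a k.val) *
          ((if k.val < i.val then (1 : ℝ) else 0) - (if k.val < i'.val then (1 : ℝ) else 0)) := by
        simp_rw [mul_sub]
        rw [Finset.sum_sub_distrib, e1, e2]
        ring
      rw [e3]
      refine (Finset.abs_sum_le_sum_abs _ _).trans (le_of_eq ?_)
      apply Finset.sum_congr rfl
      intro k _
      rw [abs_mul, abs_of_nonneg (sub_nonneg.mpr (ha (by omega)).le)]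
      change _ = (a (k.val + 1) - a k.val) *
        |Set.indicator {p : Fin (m + 1) × Fin (n + 1) | k.val < p.1.val} (fun _ => (1 : ℝ)) (i, j)
          - Set.indicator {p : Fin (m + 1) × Fin (n + 1) | k.val < p.1.val} (fun _ => (1 : ℝ))
            (i', j')|
      rw [indicator_thresh {p : Fin (m + 1) × Fin (n + 1) | k.val < p.1.val} (i, j) (k.val < i.val)
        Iff.rfl, indicator_thresh {p : Fin (m + 1) × Fin (n + 1) | k.val < p.1.val} (i', j')
        (k.val < i'.val) Iff.rfl]
    · have e1 := sum_thresh b n j.val (by omega)
      have e2 := sum_thresh b n j'.val (by omega)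
      have e3 : b j.val - b j'.val = ∑ k : Fin n, (b (k.val + 1) - b k.val) *
          ((if k.val < j.val then (1 : ℝ) else 0) - (if k.val < j'.val then (1 : ℝ) else 0)) := by
        simp_rw [mul_sub]
        rw [Finset.sum_sub_distrib, e1, e2]
        ring
      rw [e3]
      refine (Finset.abs_sum_le_sum_abs _ _).trans (le_of_eq ?_)
      apply Finset.sum_congr rfl
      intro k _
      rw [abs_mul, abs_of_nonneg (sub_nonneg.mpr (hb (by omega)).le)]
      change _ = (b (k.val + 1) - b k.val) *
        |Set.indicator {p : Fin (m + 1) × Fin (n + 1) | k.val < p.2.val} (fun _ => (1 : ℝ)) (i, j)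
          - Set.indicator {p : Fin (m + 1) × Fin (n + 1) | k.val < p.2.val} (fun _ => (1 : ℝ))
            (i', j')|
      rw [indicator_thresh {p : Fin (m + 1) × Fin (n + 1) | k.val < p.2.val} (i, j) (k.val < j.val)
        Iff.rfl, indicator_thresh {p : Fin (m + 1) × Fin (n + 1) | k.val < p.2.val} (i', j')
        (k.val < j'.val) Iff.rfl]
  linarith

/-- Repeated substitution: the closure of a class of `D`-good networks consists of
`(D + 2)`-good networks. -/
theorem good_closure {F : Net → Prop} {D : ℝ} (hF : ∀ N, F N → N.Good D) {N : Net}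
    (hN : Closure F N) : N.Good (D + 2) := by
  induction hN with
  | base N h => exact (hF N h).mono (by linarith)
  | sub R S hR _ ih => exact good_sub S (hF R hR) ih le_rfl

/-- All networks generated from rectangular grids by repeated substitution embed into `L₁` with
distortion at most three. -/
theorem grid_closure_embeds {N : Net} (hN : Closure IsGrid N) : N.EmbedsL1 3 := by
  have h : N.Good (1 + 2) := good_closure (F := IsGrid) (D := 1)
    (by
      rintro _ ⟨m, n, hmn, a, b, ha, hb, rfl⟩
      exact grid_good m n hmn a b ha hb) hN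
  have h' : N.Good 3 := by
    convert h using 1
    norm_num
  exact h'.embedsL1

end Vale.Agent.Lib.P235
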