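import Mathlib

set_option linter.style.haveILetI false
set_option linter.unusedSectionVars false

namespace Vale.Agent.Lib.P235

section Marginal

variable {E : Type} [Fintype E] [DecidableEq E] {κ : E → Type} [∀ e, Fintype (κ e)]

/-- A function on the coordinate `κ e` extended by one on the other coordinates. -/
def spike (e₁ : E) (F : κ e₁ → ℝ) : ∀ e, κ e → ℝ :=
  fun e a => if h : e = e₁ then F (h ▸ a) else 1

theorem spike_self (e₁ : E) (F : κ e₁ → ℝ) (a : κ e₁) : spike e₁ F e₁ a = F a := by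
  simp [spike]

theorem spike_ne (e₁ : E) (F : κ e₁ → ℝ) {e : E} (h : e ≠ e₁) (a : κ e) : spike e₁ F e a = 1 := by
  simp [spike, h]

theorem prod_spike (e₁ : E) (F : κ e₁ → ℝ) (J : ∀ e, κ e) :
    ∏ e, spike e₁ F e (J e) = F (J e₁) := by
  rw [Finset.prod_eq_single e₁]
  · exact spike_self e₁ F (J e₁)
  · intro e _ he
    exact spike_ne e₁ F he (J e)
  · intro h
    exact absurd (Finset.mem_univ _) h

theorem sum_prod_eq (Q : ∀ e, κ e → ℝ) :
    ∑ J : (∀ e, κ e), ∏ e, Q e (J e) = ∏ e, ∑ a, Q e a := by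
  rw [Finset.prod_univ_sum]
  rfl

variable (P : ∀ e, κ e → ℝ) (hP : ∀ e, ∑ a, P e a = 1)
include hP

theorem marg1 (e₁ : E) (F : κ e₁ → ℝ) :
    ∑ J : (∀ e, κ e), (∏ e, P e (J e)) * F (J e₁) = ∑ a, P e₁ a * F a := by
  have h1 : ∀ J : (∀ e, κ e), (∏ e, P e (J e)) * F (J e₁)
      = ∏ e, (P e (J e) * spike e₁ F e (J e)) := by
    intro J
    rw [Finset.prod_mul_distrib, prod_spike]
  simp_rw [h1]
  rw [sum_prod_eq (fun e a => P e a * spike e₁ F e a), Finset.prod_eq_single e₁]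
  · simp [spike_self]
  · intro e _ he
    simp [spike_ne e₁ F he, hP]
  · intro h
    exact absurd (Finset.mem_univ _) h

theorem marg0 :
    ∑ J : (∀ e, κ e), (∏ e, P e (J e)) = 1 := by
  rw [sum_prod_eq P]
  simp [hP]

theorem marg2 (e₁ e₂ : E) (hne : e₁ ≠ e₂) (F : κ e₁ → ℝ) (G : κ e₂ → ℝ) :
    ∑ J : (∀ e, κ e), (∏ e, P e (J e)) * (F (J e₁) * G (J e₂))
      = (∑ a, P e₁ a * F a) * (∑ b, P e₂ b * G b) := by
  have h1 : ∀ J : (∀ e, κ e), (∏ e, P e (J e)) * (F (J e₁) * G (J e₂))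
      = ∏ e, (P e (J e) * (spike e₁ F e (J e) * spike e₂ G e (J e))) := by
    intro J
    rw [Finset.prod_mul_distrib, Finset.prod_mul_distrib, prod_spike, prod_spike]
  simp_rw [h1]
  rw [sum_prod_eq (fun e a => P e a * (spike e₁ F e a * spike e₂ G e a)),
    Finset.prod_eq_mul e₁ e₂ hne]
  · congr 1
    · apply Finset.sum_congr rfl
      intro a _
      rw [spike_self, spike_ne e₂ G hne, mul_one]
    · apply Finset.sum_congr rfl
      intro a _
      rw [spike_self, spike_ne e₁ F hne.symm, one_mul]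
  · intro c _ hc
    simp [spike_ne e₁ F hc.1, spike_ne e₂ G hc.2, hP]
  · intro h
    exact absurd (Finset.mem_univ _) h
  · intro h
    exact absurd (Finset.mem_univ _) h

/-- Expectation of a polynomial of degree one in each of two independent coordinates. -/
theorem marg_poly (e₁ e₂ : E) (hne : e₁ ≠ e₂) (F : κ e₁ → ℝ) (G : κ e₂ → ℝ) (c0 c1 c2 c3 : ℝ) :
    ∑ J : (∀ e, κ e), (∏ e, P e (J e)) *
        (c0 + c1 * F (J e₁) + c2 * G (J e₂) + c3 * (F (J e₁) * G (J e₂)))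
      = c0 + c1 * (∑ a, P e₁ a * F a) + c2 * (∑ b, P e₂ b * G b)
        + c3 * ((∑ a, P e₁ a * F a) * (∑ b, P e₂ b * G b)) := by
  have h0 := marg0 P hP
  have h1 := marg1 P hP e₁ F
  have h2 := marg1 P hP e₂ G
  have h3 := marg2 P hP e₁ e₂ hne F G
  rw [← h3, ← h1, ← h2]
  have : ∀ J : (∀ e, κ e), (∏ e, P e (J e)) *
        (c0 + c1 * F (J e₁) + c2 * G (J e₂) + c3 * (F (J e₁) * G (J e₂)))
      = c0 * (∏ e, P e (J e)) + c1 * ((∏ e, P e (J e)) * F (J e₁))
        + c2 * ((∏ e, P e (J e)) * G (J e₂))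
        + c3 * ((∏ e, P e (J e)) * (F (J e₁) * G (J e₂))) := by
    intro J
    ring
  simp_rw [this]
  rw [Finset.sum_add_distrib, Finset.sum_add_distrib, Finset.sum_add_distrib,
    ← Finset.mul_sum, ← Finset.mul_sum, ← Finset.mul_sum, ← Finset.mul_sum, h0, mul_one]

end Marginal

end Vale.Agent.Lib.P235
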