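import Vale.Agent.Lib.P235.Basic
import Vale.Agent.Lib.P235.Marginal

set_option linter.style.haveILetI false
set_option linter.unusedSectionVars false

namespace Vale.Agent.Lib.P235

open Net

noncomputable instance fintypeE (N : Net) : Fintype N.E := by
  have := N.fin
  have : Finite N.E := by unfold Net.E; infer_instance
  exact Fintype.ofFinite _

noncomputable instance decEqE (N : Net) : DecidableEq N.E := Classical.decEq _

instance fintypeI {N : Net} (F : CutFamily N) : Fintype F.ι := F.fintype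

theorem Net.CutFamily.sep_eq' {N : Net} (F : CutFamily N) (x y : N.V) :
    F.sep x y = ∑ i, F.w i * |ind (F.S i) x - ind (F.S i) y| := rfl

theorem Net.CutFamily.marginal'' {N : Net} (F : CutFamily N) (v : N.V) :
    ∑ i, F.w i * ind (F.S i) v = N.h v - N.h N.s := F.marginal v

theorem Net.CutFamily.sum_w {N : Net} (F : CutFamily N) :
    ∑ i, F.w i = N.h N.t - N.h N.s := by
  have := F.marginal'' N.t
  rw [← this]
  apply Finset.sum_congr rfl
  intro i _
  rw [ind_of_mem (F.t_mem i), mul_one]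

theorem Net.dist_adj_le (N : Net) {x y : N.V} (a : N.G.Adj x y) :
    N.dist x y ≤ |N.h x - N.h y| := by
  have := N.dist_le (SimpleGraph.Walk.cons a SimpleGraph.Walk.nil)
  rwa [walkLen_cons, walkLen_nil, add_zero] at this

namespace Blocks

variable {R : Net} (S : Blocks R)

theorem len_pos (e : R.E) : 0 < R.h e.hi - R.h e.lo := sub_pos.mpr e.2.2

/-- relative height of a block vertex -/
noncomputable def rel (e : R.E) (v : (S.B e).V) : ℝ :=
  ((S.B e).h v - (S.B e).h (S.B e).s) / (R.h e.hi - R.h e.lo)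

theorem rel_mul (e : R.E) (v : (S.B e).V) :
    S.rel e v * (R.h e.hi - R.h e.lo) = (S.B e).h v - (S.B e).h (S.B e).s := by
  unfold rel
  exact div_mul_cancel₀ _ (len_pos e).ne'

theorem one_sub_rel_mul (e : R.E) (v : (S.B e).V) :
    (1 - S.rel e v) * (R.h e.hi - R.h e.lo) = (S.B e).h (S.B e).t - (S.B e).h v := by
  have h1 := S.rel_mul e v
  have h2 := S.len e
  linarith

/-! ### Distances in the substituted network -/

theorem dist_emb_walk (e : R.E) {x y : (S.B e).V} (p : (S.B e).G.Walk x y) :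
    S.sub.dist (S.emb e x) (S.emb e y) ≤ (S.B e).walkLen p := by
  induction p with
  | nil => simpa [walkLen_nil] using S.sub.dist_self_le _
  | @cons u v w a p ih =>
    rw [walkLen_cons]
    have hadj : S.sub.G.Adj (S.emb e u) (S.emb e v) := ⟨e, u, v, a, rfl, rfl⟩
    have h1 := S.sub.dist_adj_le hadj
    have h2 : |S.sub.h (S.emb e u) - S.sub.h (S.emb e v)| = |(S.B e).h u - (S.B e).h v| := by
      change |S.CH (S.emb e u) - S.CH (S.emb e v)| = _
      rw [S.CH_emb, S.CH_emb]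
      congr 1
      ring
    have h3 := S.sub.dist_triangle (S.emb e u) (S.emb e v) (S.emb e w)
    linarith

theorem dist_emb_le (e : R.E) (x y : (S.B e).V) :
    S.sub.dist (S.emb e x) (S.emb e y) ≤ (S.B e).dist x y :=
  (S.B e).le_dist fun p => S.dist_emb_walk e p

theorem dist_emb_s (e : R.E) (x : (S.B e).V) :
    S.sub.dist (S.emb e x) (Sum.inl e.lo) ≤ S.rel e x * (R.h e.hi - R.h e.lo) := by
  rw [S.rel_mul, ← S.emb_s e]
  refine (S.dist_emb_le e x _).trans ?_
  rw [(S.B e).dist_comm]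
  exact (S.B e).dist_s_le x

theorem dist_emb_t (e : R.E) (x : (S.B e).V) :
    S.sub.dist (S.emb e x) (Sum.inl e.hi) ≤ (1 - S.rel e x) * (R.h e.hi - R.h e.lo) := by
  rw [S.one_sub_rel_mul, ← S.emb_t e]
  refine (S.dist_emb_le e x _).trans ?_
  exact (S.B e).dist_le_t x

theorem dist_inl_adj_of_lt {a b : R.V} (hab : R.G.Adj a b) (hlt : R.h a < R.h b) :
    S.sub.dist (Sum.inl a) (Sum.inl b) ≤ R.h b - R.h a := by
  let e : R.E := mkE a b hab hlt
  have h1 := S.dist_emb_le e (S.B e).s (S.B e).t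
  rw [S.emb_s, S.emb_t] at h1
  have h2 := (S.B e).dist_s_le (S.B e).t
  have h3 := S.len e
  have : R.h e.hi - R.h e.lo = R.h b - R.h a := rfl
  change S.sub.dist (Sum.inl e.lo) (Sum.inl e.hi) ≤ R.h e.hi - R.h e.lo
  linarith

theorem dist_inl_adj {a b : R.V} (hab : R.G.Adj a b) :
    S.sub.dist (Sum.inl a) (Sum.inl b) ≤ |R.h a - R.h b| := by
  rcases lt_or_gt_of_ne (R.adj_ne a b hab) with hlt | hlt
  · rw [abs_of_neg (by linarith)]
    have := S.dist_inl_adj_of_lt hab hlt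
    linarith
  · rw [abs_of_pos (by linarith)]
    have h1 := S.dist_inl_adj_of_lt hab.symm hlt
    have h2 := S.sub.dist_comm (Sum.inl b) (Sum.inl a)
    linarith

theorem dist_inl_walk {a b : R.V} (p : R.G.Walk a b) :
    S.sub.dist (Sum.inl a) (Sum.inl b) ≤ R.walkLen p := by
  induction p with
  | nil => simpa [walkLen_nil] using S.sub.dist_self_le _
  | @cons u v w hadj p ih =>
    rw [walkLen_cons]
    have h1 := S.dist_inl_adj hadj
    have h3 := S.sub.dist_triangle (Sum.inl u) (Sum.inl v) (Sum.inl w)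
    linarith

theorem dist_inl_le (a b : R.V) :
    S.sub.dist (Sum.inl a) (Sum.inl b) ≤ R.dist a b :=
  R.le_dist fun p => S.dist_inl_walk p

theorem exists_emb (x : S.CV) : ∃ (e : R.E) (v : (S.B e).V), S.emb e v = x := by
  rcases x with x | ⟨e, v, h1, h2⟩
  · by_cases hx : x = R.s
    · obtain ⟨u, hu, hlt⟩ := R.up x (by rw [hx]; exact R.s_ne_t)
      exact ⟨mkE x u hu hlt, _, S.emb_s _⟩
    · obtain ⟨u, hu, hlt⟩ := R.low x hx
      exact ⟨mkE u x hu hlt, _, S.emb_t _⟩
  · exact ⟨e, v, S.emb_inner e v h1 h2⟩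

/-! ### The composite cut family -/

variable (FR : CutFamily R) (FB : ∀ e, CutFamily (S.B e))

/-- normalized weights of the block families -/
noncomputable def P (e : R.E) (a : (FB e).ι) : ℝ := (FB e).w a / (R.h e.hi - R.h e.lo)

theorem P_nonneg (e : R.E) (a : (FB e).ι) : 0 ≤ S.P FB e a :=
  div_nonneg ((FB e).w_nonneg a) (len_pos e).le

theorem sum_P (e : R.E) : ∑ a, S.P FB e a = 1 := by
  unfold P
  rw [← Finset.sum_div, (FB e).sum_w, S.len e]
  exact div_self (len_pos e).ne'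

theorem sum_P_ind (e : R.E) (v : (S.B e).V) :
    ∑ a, S.P FB e a * ind ((FB e).S a) v = S.rel e v := by
  unfold P rel
  rw [← (FB e).marginal'' v, Finset.sum_div]
  apply Finset.sum_congr rfl
  intro a _
  ring

include FB in
theorem rel_nonneg (e : R.E) (v : (S.B e).V) : 0 ≤ S.rel e v := by
  rw [← S.sum_P_ind FB e v]
  exact Finset.sum_nonneg fun a _ => mul_nonneg (S.P_nonneg FB e a) (ind_nonneg _ _)

include FB in
theorem rel_le_one (e : R.E) (v : (S.B e).V) : S.rel e v ≤ 1 := by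
  rw [← S.sum_P_ind FB e v, ← S.sum_P FB e]
  exact Finset.sum_le_sum fun a _ =>
    mul_le_of_le_one_right (S.P_nonneg FB e a) (ind_le_one _ _)

/-- the set of composite vertices selected by a cut of the skeleton and a choice of block cuts -/
def CSet (i : FR.ι) (J : ∀ e, (FB e).ι) : Set S.CV :=
  {x | Sum.elim (fun v => v ∈ FR.S i)
    (fun y => y.1.lo ∈ FR.S i ∨ (y.1.hi ∈ FR.S i ∧ y.2.1 ∈ (FB y.1).S (J y.1))) x}

theorem lo_mem_hi (i : FR.ι) (e : R.E) (h : e.lo ∈ FR.S i) : e.hi ∈ FR.S i :=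
  FR.upward i _ _ e.2.1 e.2.2 h

theorem mem_CSet_emb (i : FR.ι) (J : ∀ e, (FB e).ι) (e : R.E) (v : (S.B e).V) :
    S.emb e v ∈ S.CSet FR FB i J ↔ e.lo ∈ FR.S i ∨ (e.hi ∈ FR.S i ∧ v ∈ (FB e).S (J e)) := by
  by_cases hs : v = (S.B e).s
  · subst hs
    rw [S.emb_s]
    constructor
    · intro h
      exact Or.inl h
    · rintro (h | ⟨-, h⟩)
      · exact h
      · exact absurd h ((FB e).s_notMem _)
  by_cases ht : v = (S.B e).t
  · subst ht
    rw [S.emb_t]
    constructor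
    · intro h
      exact Or.inr ⟨h, (FB e).t_mem _⟩
    · rintro (h | ⟨h, -⟩)
      · exact lo_mem_hi FR i e h
      · exact h
  · rw [S.emb_inner e v hs ht]
    exact Iff.rfl

theorem ind_CSet_emb (i : FR.ι) (J : ∀ e, (FB e).ι) (e : R.E) (v : (S.B e).V) :
    ind (S.CSet FR FB i J) (S.emb e v) = ind (FR.S i) e.lo
      + (ind (FR.S i) e.hi - ind (FR.S i) e.lo) * ind ((FB e).S (J e)) v := by
  by_cases hlo : e.lo ∈ FR.S i
  · have hhi := lo_mem_hi FR i e hlo
    rw [ind_of_mem ((S.mem_CSet_emb FR FB i J e v).2 (Or.inl hlo)), ind_of_mem hlo, ind_of_mem hhi]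
    ring
  · by_cases hhi : e.hi ∈ FR.S i
    · by_cases hv : v ∈ (FB e).S (J e)
      · rw [ind_of_mem ((S.mem_CSet_emb FR FB i J e v).2 (Or.inr ⟨hhi, hv⟩)), ind_of_notMem hlo,
          ind_of_mem hhi, ind_of_mem hv]
        ring
      · have : S.emb e v ∉ S.CSet FR FB i J := by
          rw [S.mem_CSet_emb]
          tauto
        rw [ind_of_notMem this, ind_of_notMem hlo, ind_of_mem hhi, ind_of_notMem hv]
        ring
    · have : S.emb e v ∉ S.CSet FR FB i J := by
        rw [S.mem_CSet_emb]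
        tauto
      rw [ind_of_notMem this, ind_of_notMem hlo, ind_of_notMem hhi]
      ring

/-- the value of a skeleton cut at the relative position `p` of the edge `e` -/
noncomputable def mval (i : FR.ι) (e : R.E) (p : ℝ) : ℝ :=
  ind (FR.S i) e.lo + (ind (FR.S i) e.hi - ind (FR.S i) e.lo) * p

theorem expect_one (i : FR.ι) (e : R.E) (v : (S.B e).V) :
    ∑ J : (∀ e, (FB e).ι), (∏ e, S.P FB e (J e)) * ind (S.CSet FR FB i J) (S.emb e v)
      = mval FR i e (S.rel e v) := by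
  have h0 := marg0 (S.P FB) (S.sum_P FB)
  have h1 := marg1 (S.P FB) (S.sum_P FB) e (fun a => ind ((FB e).S a) v)
  rw [S.sum_P_ind] at h1
  unfold mval
  rw [← h1]
  have : ∀ J : (∀ e, (FB e).ι), (∏ e, S.P FB e (J e)) * ind (S.CSet FR FB i J) (S.emb e v)
      = ind (FR.S i) e.lo * (∏ e, S.P FB e (J e))
        + (ind (FR.S i) e.hi - ind (FR.S i) e.lo)
          * ((∏ e, S.P FB e (J e)) * ind ((FB e).S (J e)) v) := by
    intro J
    rw [S.ind_CSet_emb]
    ring
  simp_rw [this]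
  rw [Finset.sum_add_distrib, ← Finset.mul_sum, ← Finset.mul_sum, h0, mul_one]

theorem upward_CSet (i : FR.ι) (J : ∀ e, (FB e).ι) (e : R.E) (u v : (S.B e).V)
    (huv : (S.B e).G.Adj u v) (hlt : (S.B e).h u < (S.B e).h v)
    (hu : S.emb e u ∈ S.CSet FR FB i J) : S.emb e v ∈ S.CSet FR FB i J := by
  rw [S.mem_CSet_emb] at hu ⊢
  rcases hu with hu | ⟨h1, h2⟩
  · exact Or.inl hu
  · exact Or.inr ⟨h1, (FB e).upward _ u v huv hlt h2⟩

theorem sum_comp (g : FR.ι × (∀ e, (FB e).ι) → ℝ) :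
    ∑ c, (FR.w c.1 * ∏ e, S.P FB e (c.2 e)) * g c
      = ∑ i, FR.w i * ∑ J : (∀ e, (FB e).ι), (∏ e, S.P FB e (J e)) * g (i, J) := by
  rw [Fintype.sum_prod_type]
  apply Finset.sum_congr rfl
  intro i _
  rw [Finset.mul_sum]
  apply Finset.sum_congr rfl
  intro J _
  ring

theorem sum_w_diff (e : R.E) :
    ∑ i, FR.w i * (ind (FR.S i) e.hi - ind (FR.S i) e.lo) = R.h e.hi - R.h e.lo := by
  have h1 := FR.marginal'' e.hi
  have h2 := FR.marginal'' e.lo
  have : ∑ i, FR.w i * (ind (FR.S i) e.hi - ind (FR.S i) e.lo)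
      = ∑ i, FR.w i * ind (FR.S i) e.hi - ∑ i, FR.w i * ind (FR.S i) e.lo := by
    rw [← Finset.sum_sub_distrib]
    apply Finset.sum_congr rfl
    intro i _
    ring
  rw [this, h1, h2]
  ring

theorem sum_mval (e : R.E) (p : ℝ) :
    ∑ i, FR.w i * mval FR i e p = (R.h e.lo - R.h R.s) + p * (R.h e.hi - R.h e.lo) := by
  have h1 := FR.marginal'' e.lo
  have h2 := sum_w_diff FR e
  unfold mval
  have : ∑ i, FR.w i * (ind (FR.S i) e.lo + (ind (FR.S i) e.hi - ind (FR.S i) e.lo) * p)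
      = ∑ i, FR.w i * ind (FR.S i) e.lo
        + p * ∑ i, FR.w i * (ind (FR.S i) e.hi - ind (FR.S i) e.lo) := by
    rw [Finset.mul_sum, ← Finset.sum_add_distrib]
    apply Finset.sum_congr rfl
    intro i _
    ring
  rw [this, h1, h2]

/-- The composite monotone cut family on the substituted network: sample a cut of the skeleton and,
independently for each edge, a cut of the block; blocks of crossed edges use their cut. -/
noncomputable def CF : CutFamily S.sub where
  ι := FR.ι × (∀ e, (FB e).ι)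
  fintype := inferInstance
  w c := FR.w c.1 * ∏ e, S.P FB e (c.2 e)
  S c := S.CSet FR FB c.1 c.2
  w_nonneg c := mul_nonneg (FR.w_nonneg _)
    (Finset.prod_nonneg fun e _ => S.P_nonneg FB e _)
  s_notMem c := FR.s_notMem c.1
  t_mem c := FR.t_mem c.1
  upward := by
    rintro c x y ⟨e, u, v, huv, rfl, rfl⟩ hlt hu
    have hlt' : S.CH (S.emb e u) < S.CH (S.emb e v) := hlt
    rw [S.CH_emb, S.CH_emb] at hlt'
    exact S.upward_CSet FR FB c.1 c.2 e u v huv (by linarith) hu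
  marginal := by
    intro x
    obtain ⟨e, v, rfl⟩ := S.exists_emb x
    have := S.sum_comp FR FB (fun c => ind (S.CSet FR FB c.1 c.2) (S.emb e v))
    refine Eq.trans this ?_
    simp_rw [S.expect_one]
    rw [sum_mval, S.rel_mul]
    change _ = S.CH (S.emb e v) - R.h R.s
    rw [S.CH_emb]
    ring

theorem CF_sep (x y : S.CV) :
    (S.CF FR FB).sep x y = ∑ i, FR.w i * ∑ J : (∀ e, (FB e).ι), (∏ e, S.P FB e (J e)) *
      |ind (S.CSet FR FB i J) x - ind (S.CSet FR FB i J) y| :=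
  S.sum_comp FR FB (fun c => |ind (S.CSet FR FB c.1 c.2) x - ind (S.CSet FR FB c.1 c.2) y|)

/-! ### Separation within one block -/

theorem ind_le_hi (i : FR.ι) (e : R.E) : ind (FR.S i) e.lo ≤ ind (FR.S i) e.hi := by
  by_cases hlo : e.lo ∈ FR.S i
  · rw [ind_of_mem hlo, ind_of_mem (lo_mem_hi FR i e hlo)]
  · rw [ind_of_notMem hlo]
    exact ind_nonneg _ _

theorem expect_same (i : FR.ι) (e : R.E) (x y : (S.B e).V) :
    ∑ J : (∀ e, (FB e).ι), (∏ e, S.P FB e (J e)) *
        |ind (S.CSet FR FB i J) (S.emb e x) - ind (S.CSet FR FB i J) (S.emb e y)|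
      = (ind (FR.S i) e.hi - ind (FR.S i) e.lo)
        * ∑ a, S.P FB e a * |ind ((FB e).S a) x - ind ((FB e).S a) y| := by
  have h1 := marg1 (S.P FB) (S.sum_P FB) e (fun a => |ind ((FB e).S a) x - ind ((FB e).S a) y|)
  rw [← h1, Finset.mul_sum]
  apply Finset.sum_congr rfl
  intro J _
  rw [S.ind_CSet_emb, S.ind_CSet_emb]
  have hd : 0 ≤ ind (FR.S i) e.hi - ind (FR.S i) e.lo := sub_nonneg.mpr (ind_le_hi FR i e)
  have : ind (FR.S i) e.lo + (ind (FR.S i) e.hi - ind (FR.S i) e.lo) * ind ((FB e).S (J e)) x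
      - (ind (FR.S i) e.lo + (ind (FR.S i) e.hi - ind (FR.S i) e.lo) * ind ((FB e).S (J e)) y)
      = (ind (FR.S i) e.hi - ind (FR.S i) e.lo)
        * (ind ((FB e).S (J e)) x - ind ((FB e).S (J e)) y) := by ring
  rw [this, abs_mul, abs_of_nonneg hd]
  ring

theorem sep_same (e : R.E) (x y : (S.B e).V) :
    (S.CF FR FB).sep (S.emb e x) (S.emb e y) = (FB e).sep x y := by
  rw [S.CF_sep]
  simp_rw [S.expect_same]
  have h1 := sum_w_diff FR e
  have : ∀ i, FR.w i * ((ind (FR.S i) e.hi - ind (FR.S i) e.lo)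
        * ∑ a, S.P FB e a * |ind ((FB e).S a) x - ind ((FB e).S a) y|)
      = (FR.w i * (ind (FR.S i) e.hi - ind (FR.S i) e.lo))
        * ∑ a, S.P FB e a * |ind ((FB e).S a) x - ind ((FB e).S a) y| := by
    intro i
    ring
  simp_rw [this]
  rw [← Finset.sum_mul, h1, (FB e).sep_eq', Finset.mul_sum]
  apply Finset.sum_congr rfl
  intro a _
  unfold P
  have := (len_pos e).ne'
  field_simp

/-! ### Separation across two different blocks -/

theorem expect_cross (i : FR.ι) (e e' : R.E) (hne : e ≠ e') (x : (S.B e).V) (y : (S.B e').V) :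
    ∑ J : (∀ e, (FB e).ι), (∏ e, S.P FB e (J e)) *
        |ind (S.CSet FR FB i J) (S.emb e x) - ind (S.CSet FR FB i J) (S.emb e' y)|
      = mval FR i e (S.rel e x) + mval FR i e' (S.rel e' y)
        - 2 * (mval FR i e (S.rel e x) * mval FR i e' (S.rel e' y)) := by
  have h := marg_poly (S.P FB) (S.sum_P FB) e e' hne (fun a => ind ((FB e).S a) x)
    (fun b => ind ((FB e').S b) y)
    (ind (FR.S i) e.lo + ind (FR.S i) e'.lo - 2 * (ind (FR.S i) e.lo * ind (FR.S i) e'.lo))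
    ((ind (FR.S i) e.hi - ind (FR.S i) e.lo) * (1 - 2 * ind (FR.S i) e'.lo))
    ((ind (FR.S i) e'.hi - ind (FR.S i) e'.lo) * (1 - 2 * ind (FR.S i) e.lo))
    (-2 * ((ind (FR.S i) e.hi - ind (FR.S i) e.lo) * (ind (FR.S i) e'.hi - ind (FR.S i) e'.lo)))
  rw [S.sum_P_ind, S.sum_P_ind] at h
  unfold mval
  refine Eq.trans ?_ (h.trans ?_)
  · apply Finset.sum_congr rfl
    intro J _
    congr 1
    rw [abs_sub_ind, S.ind_CSet_emb, S.ind_CSet_emb]
    ring
  · ring

theorem sep_cross (e e' : R.E) (hne : e ≠ e') (x : (S.B e).V) (y : (S.B e').V) :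
    (S.CF FR FB).sep (S.emb e x) (S.emb e' y) = ∑ i, FR.w i *
      (mval FR i e (S.rel e x) + mval FR i e' (S.rel e' y)
        - 2 * (mval FR i e (S.rel e x) * mval FR i e' (S.rel e' y))) := by
  rw [S.CF_sep]
  simp_rw [S.expect_cross FR FB _ e e' hne]

/-- separation of the endpoints of two edges, in bilinear form -/
theorem sep_bilinear (e e' : R.E) (p q : ℝ) :
    ∑ i, FR.w i * (mval FR i e p + mval FR i e' q - 2 * (mval FR i e p * mval FR i e' q))
      = (1 - p) * (1 - q) * FR.sep e.lo e'.lo + (1 - p) * q * FR.sep e.lo e'.hi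
        + p * (1 - q) * FR.sep e.hi e'.lo + p * q * FR.sep e.hi e'.hi := by
  simp_rw [FR.sep_eq', abs_sub_ind, Finset.mul_sum]
  rw [← Finset.sum_add_distrib, ← Finset.sum_add_distrib, ← Finset.sum_add_distrib]
  apply Finset.sum_congr rfl
  intro i _
  unfold mval
  ring

theorem pointwise_ineq (A B A' B' p q : ℝ) (hA : A = 0 ∨ A = 1) (hB : B = 0 ∨ B = 1)
    (hA' : A' = 0 ∨ A' = 1) (hB' : B' = 0 ∨ B' = 1) (hAB : A ≤ B) (hAB' : A' ≤ B')
    (hp0 : 0 ≤ p) (hp1 : p ≤ 1) (hq0 : 0 ≤ q) (hq1 : q ≤ 1) :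
    p * (1 - p) * (B - A) + q * (1 - q) * (B' - A')
      ≤ (A + (B - A) * p) + (A' + (B' - A') * q) - 2 * ((A + (B - A) * p) * (A' + (B' - A') * q)) := by
  rcases hA with rfl | rfl <;> rcases hB with rfl | rfl <;> rcases hA' with rfl | rfl <;>
    rcases hB' with rfl | rfl <;> first
      | (exfalso; norm_num at hAB; done)
      | (exfalso; norm_num at hAB'; done)
      | nlinarith [mul_nonneg hp0 hq0, mul_nonneg hp0 hp0, mul_nonneg hq0 hq0, sq_nonneg (p - q),
          mul_nonneg hp0 (sub_nonneg.mpr hp1), mul_nonneg hq0 (sub_nonneg.mpr hq1)]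

theorem sep_cross_ge (e e' : R.E) (p q : ℝ) (hp0 : 0 ≤ p) (hp1 : p ≤ 1) (hq0 : 0 ≤ q) (hq1 : q ≤ 1) :
    p * (1 - p) * (R.h e.hi - R.h e.lo) + q * (1 - q) * (R.h e'.hi - R.h e'.lo)
      ≤ ∑ i, FR.w i *
        (mval FR i e p + mval FR i e' q - 2 * (mval FR i e p * mval FR i e' q)) := by
  rw [← sum_w_diff FR e, ← sum_w_diff FR e', Finset.mul_sum, Finset.mul_sum,
    ← Finset.sum_add_distrib]
  apply Finset.sum_le_sum
  intro i _
  have h := pointwise_ineq (ind (FR.S i) e.lo) (ind (FR.S i) e.hi) (ind (FR.S i) e'.lo)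
    (ind (FR.S i) e'.hi) p q (ind_sq _ _) (ind_sq _ _) (ind_sq _ _) (ind_sq _ _)
    (ind_le_hi FR i e) (ind_le_hi FR i e') hp0 hp1 hq0 hq1
  have h2 := mul_le_mul_of_nonneg_left h (FR.w_nonneg i)
  unfold mval
  calc _ = FR.w i * (p * (1 - p) * (ind (FR.S i) e.hi - ind (FR.S i) e.lo)
        + q * (1 - q) * (ind (FR.S i) e'.hi - ind (FR.S i) e'.lo)) := by ring
    _ ≤ _ := h2

/-- Main estimate for two different blocks. -/
theorem cross_bound (D₀ : ℝ) (hR : ∀ x y, R.dist x y ≤ D₀ * FR.sep x y)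
    (e e' : R.E) (hne : e ≠ e') (x : (S.B e).V) (y : (S.B e').V) :
    S.sub.dist (S.emb e x) (S.emb e' y) ≤ (D₀ + 2) * (S.CF FR FB).sep (S.emb e x) (S.emb e' y) := by
  set p := S.rel e x with hp
  set q := S.rel e' y with hq
  have hp0 : 0 ≤ p := S.rel_nonneg FB e x
  have hp1 : p ≤ 1 := S.rel_le_one FB e x
  have hq0 : 0 ≤ q := S.rel_nonneg FB e' y
  have hq1 : q ≤ 1 := S.rel_le_one FB e' y
  set L := R.h e.hi - R.h e.lo with hL
  set L' := R.h e'.hi - R.h e'.lo with hL'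
  set d := S.sub.dist (S.emb e x) (S.emb e' y) with hd
  set c := (S.CF FR FB).sep (S.emb e x) (S.emb e' y) with hc
  have hc1 : c = (1 - p) * (1 - q) * FR.sep e.lo e'.lo + (1 - p) * q * FR.sep e.lo e'.hi
        + p * (1 - q) * FR.sep e.hi e'.lo + p * q * FR.sep e.hi e'.hi := by
    rw [hc, S.sep_cross FR FB e e' hne, sep_bilinear]
  have hc2 : p * (1 - p) * L + q * (1 - q) * L' ≤ c := by
    rw [hc, S.sep_cross FR FB e e' hne]
    exact sep_cross_ge FR e e' p q hp0 hp1 hq0 hq1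
  have xlo := S.dist_emb_s e x
  have xhi := S.dist_emb_t e x
  have ylo : S.sub.dist (Sum.inl e'.lo) (S.emb e' y) ≤ q * L' :=
    (S.sub.dist_comm _ _).le.trans (S.dist_emb_s e' y)
  have yhi : S.sub.dist (Sum.inl e'.hi) (S.emb e' y) ≤ (1 - q) * L' :=
    (S.sub.dist_comm _ _).le.trans (S.dist_emb_t e' y)
  have route : ∀ a b : R.V, ∀ u v : ℝ,
      S.sub.dist (S.emb e x) (Sum.inl a) ≤ u → S.sub.dist (Sum.inl b) (S.emb e' y) ≤ v →
      d ≤ u + v + D₀ * FR.sep a b := by
    intro a b u v hu hv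
    have h1 := S.sub.dist_triangle (S.emb e x) (Sum.inl a) (S.emb e' y)
    have h2 := S.sub.dist_triangle (Sum.inl a) (Sum.inl b) (S.emb e' y)
    have h3 := S.dist_inl_le a b
    have h4 := hR a b
    linarith
  have r00 := route e.lo e'.lo _ _ xlo ylo
  have r01 := route e.lo e'.hi _ _ xlo yhi
  have r10 := route e.hi e'.lo _ _ xhi ylo
  have r11 := route e.hi e'.hi _ _ xhi yhi
  have w00 : 0 ≤ (1 - p) * (1 - q) := mul_nonneg (by linarith) (by linarith)
  have w01 : 0 ≤ (1 - p) * q := mul_nonneg (by linarith) hq0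
  have w10 : 0 ≤ p * (1 - q) := mul_nonneg hp0 (by linarith)
  have w11 : 0 ≤ p * q := mul_nonneg hp0 hq0
  calc d = (1 - p) * (1 - q) * d + (1 - p) * q * d + p * (1 - q) * d + p * q * d := by ring
    _ ≤ (1 - p) * (1 - q) * (p * L + q * L' + D₀ * FR.sep e.lo e'.lo)
        + (1 - p) * q * (p * L + (1 - q) * L' + D₀ * FR.sep e.lo e'.hi)
        + p * (1 - q) * ((1 - p) * L + q * L' + D₀ * FR.sep e.hi e'.lo)
        + p * q * ((1 - p) * L + (1 - q) * L' + D₀ * FR.sep e.hi e'.hi) := by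
        gcongr
    _ = 2 * (p * (1 - p) * L + q * (1 - q) * L') + D₀ *
        ((1 - p) * (1 - q) * FR.sep e.lo e'.lo + (1 - p) * q * FR.sep e.lo e'.hi
          + p * (1 - q) * FR.sep e.hi e'.lo + p * q * FR.sep e.hi e'.hi) := by ring
    _ ≤ 2 * c + D₀ * c := by
        rw [← hc1]
        linarith
    _ = (D₀ + 2) * c := by ring

/-- The substitution theorem at the level of cut families. -/
theorem CF_bound {D₀ D : ℝ} (hR : ∀ x y, R.dist x y ≤ D₀ * FR.sep x y)
    (hB : ∀ e, ∀ x y, (S.B e).dist x y ≤ D * (FB e).sep x y) (hD : D₀ + 2 ≤ D) (x y : S.CV) :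
    S.sub.dist x y ≤ D * (S.CF FR FB).sep x y := by
  obtain ⟨e, x', rfl⟩ := S.exists_emb x
  obtain ⟨e', y', rfl⟩ := S.exists_emb y
  by_cases hne : e = e'
  · subst hne
    rw [S.sep_same]
    exact (S.dist_emb_le e x' y').trans (hB e x' y')
  · refine (S.cross_bound FR FB D₀ hR e e' hne x' y').trans ?_
    exact mul_le_mul_of_nonneg_right hD ((S.CF FR FB).sep_nonneg _ _)

end Blocks

/-- **Monotone substitution theorem.** -/
theorem good_sub {R : Net} (S : Blocks R) {D₀ D : ℝ} (hR : R.Good D₀)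
    (hB : ∀ e, (S.B e).Good D) (hD : D₀ + 2 ≤ D) : S.sub.Good D := by
  obtain ⟨FR, hFR⟩ := hR
  choose FB hFB using hB
  exact ⟨S.CF FR FB, fun x y => S.CF_bound FR FB hFR hFB hD x y⟩

end Vale.Agent.Lib.P235
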